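import Vale.Agent.P218.Assembly

/-! Families of measures whose variation is controlled by the drop of an energy: the variation
between consecutive scales is square summable against the logarithmic gaps; two limits are
visited alternately only at very sparse scales. -/

set_option linter.unusedSectionVars false
set_option linter.unusedVariables false

open MeasureTheory Set Filter Topology
open scoped ENNReal NNReal CompactlySupported

namespace Vale.Agent.P218

variable {E : Type*} [NormedAddCommGroup E] [InnerProductSpace ℝ E] [FiniteDimensional ℝ E]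
  [MeasurableSpace E] [BorelSpace E]

/-- `C¹` test functions determine a Radon measure -/
theorem eq_of_contDiff {κ κ' : Measure E} [IsLocallyFiniteMeasure κ] [IsLocallyFiniteMeasure κ']
    (h1 : ∀ g : E → ℝ, ContDiff ℝ 1 g → HasCompactSupport g → ∫ x, g x ∂κ = ∫ x, g x ∂κ') :
    κ = κ' := by
  refine fnl_injective ?_
  funext φ
  obtain ⟨R, hR⟩ : ∃ R : ℝ, ∀ x, R < ‖x‖ → φ x = 0 := by
    obtain ⟨R, hR⟩ := φ.hasCompactSupport.isCompact.isBounded.subset_closedBall 0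
    refine ⟨R, fun x hx => image_eq_zero_of_notMem_tsupport fun h => ?_⟩
    have := hR h
    rw [mem_closedBall_zero_iff] at this
    linarith
  obtain ⟨C, hC⟩ : ∃ C : ℝ≥0, κ (Metric.closedBall 0 R) ≤ C :=
    ⟨(κ (Metric.closedBall 0 R)).toNNReal,
      (ENNReal.coe_toNNReal (isCompact_closedBall (0 : E) R).measure_lt_top.ne).ge⟩
  obtain ⟨C', hC'⟩ : ∃ C : ℝ≥0, κ' (Metric.closedBall 0 R) ≤ C :=
    ⟨(κ' (Metric.closedBall 0 R)).toNNReal,
      (ENNReal.coe_toNNReal (isCompact_closedBall (0 : E) R).measure_lt_top.ne).ge⟩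
  refine eq_of_forall_dist_le fun ε hε => ?_
  set M : ℝ := ε / (C + C' + 1) with hM
  have hMpos : 0 < M := by positivity
  obtain ⟨g, hg1, hg2, hg3⟩ := φ.continuous.exists_contDiff_approx 1 (ε := fun _ => M)
    continuous_const (fun _ => hMpos)
  have hgR : ∀ x, R < ‖x‖ → g x = 0 := by
    intro x hx
    by_contra hne
    exact hg3 (show x ∈ Function.support g from hne) (hR x hx)
  have hgs : HasCompactSupport g :=
    HasCompactSupport.intro (isCompact_closedBall (0 : E) R) fun x hx => hgR x (by simpa using hx)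
  have happ : ∀ x, ‖x‖ ≤ R → |φ x - g x| ≤ M := fun x _ => by
    rw [abs_sub_comm]
    have := hg2 x
    rw [Real.dist_eq] at this
    exact this.le
  have hφc : Continuous (fun x => φ x) := φ.continuous
  have e1 := abs_integral_sub_le hφc hg1.continuous hR hgR happ hMpos.le hC
  have e2 := abs_integral_sub_le hφc hg1.continuous hR hgR happ hMpos.le hC'
  have e3 := h1 g hg1 hgs
  have e4 : M * C + M * C' ≤ ε := by
    rw [← mul_add, hM, div_mul_eq_mul_div, div_le_iff₀ (by positivity)]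
    nlinarith [C.coe_nonneg, C'.coe_nonneg]
  rw [Real.dist_eq]
  show |∫ x, φ x ∂κ - ∫ x, φ x ∂κ'| ≤ ε
  rw [abs_le] at e1 e2 ⊢
  constructor <;> linarith

/-- if `∑ 1 / g_k < ∞` with `g_k > 0` then `(∑_{i<n} g_i) / n² → ∞` -/
theorem tendsto_div_sq {τ : ℕ → ℝ} (hmono : Monotone τ)
    (hs : Summable fun k => 1 / (τ (k + 1) - τ k)) {k₀ : ℕ}
    (hpos : ∀ k, k₀ ≤ k → 0 < τ (k + 1) - τ k) :
    Tendsto (fun n : ℕ => τ n / (n : ℝ) ^ 2) atTop atTop := by
  rw [tendsto_atTop]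
  intro M
  set M' : ℝ := 8 * (|M| + 1) with hM'
  have hM'pos : 0 < M' := by positivity
  -- a tail of the series below `1 / M'`
  obtain ⟨s, hs'⟩ := hs.vanishing (Metric.ball_mem_nhds (0 : ℝ) (one_div_pos.2 hM'pos))
  obtain ⟨n₁, hn₁⟩ : ∃ n₁ : ℕ, ∀ i ∈ s, i < n₁ := by
    refine ⟨s.sup id + 1, fun i hi => ?_⟩
    have := Finset.le_sup (f := id) hi
    simp only [id] at this
    omega
  set n₀ := max n₁ k₀ with hn₀
  have htail : ∀ n, n₀ ≤ n → ∑ i ∈ Finset.Ico n₀ n, 1 / (τ (i + 1) - τ i) ≤ 1 / M' := by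
    intro n hn
    have hdis : Disjoint (Finset.Ico n₀ n) s := by
      rw [Finset.disjoint_left]
      intro i hi his
      have h1 := hn₁ i his
      have h2 := (Finset.mem_Ico.1 hi).1
      have h3 : n₁ ≤ n₀ := le_max_left _ _
      omega
    have h1 := hs' _ hdis
    rw [mem_ball_zero_iff, Real.norm_eq_abs] at h1
    exact (le_abs_self _).trans h1.le
  have hcs : ∀ n, n₀ ≤ n → M' * ((n : ℝ) - n₀) ^ 2 ≤ τ n - τ n₀ := by
    intro n hn
    have h1 := Finset.sum_sq_le_sum_mul_sum_of_sq_le_mul (Finset.Ico n₀ n)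
      (r := fun _ => (1 : ℝ)) (f := fun i => 1 / (τ (i + 1) - τ i))
      (g := fun i => τ (i + 1) - τ i)
      (fun i hi => by
        have := hpos i ((le_max_right _ _).trans (Finset.mem_Ico.1 hi).1)
        positivity)
      (fun i hi => (hpos i ((le_max_right _ _).trans (Finset.mem_Ico.1 hi).1)).le)
      (fun i hi => by
        have := hpos i ((le_max_right _ _).trans (Finset.mem_Ico.1 hi).1)
        refine le_of_eq ?_
        field_simp)
    have h2 : ∑ i ∈ Finset.Ico n₀ n, (τ (i + 1) - τ i) = τ n - τ n₀ :=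
      Finset.sum_Ico_sub τ hn
    have h3 : ∑ i ∈ Finset.Ico n₀ n, (1 : ℝ) = (n : ℝ) - n₀ := by
      rw [Finset.sum_const, Nat.card_Ico, nsmul_eq_mul, mul_one, Nat.cast_sub hn]
    rw [h2, h3] at h1
    have h4 : 0 ≤ τ n - τ n₀ := sub_nonneg.2 (hmono hn)
    have h5 := h1.trans (mul_le_mul_of_nonneg_right (htail n hn) h4)
    rw [div_mul_eq_mul_div, one_mul, le_div_iff₀ hM'pos] at h5
    linarith
  -- conclusion
  have hlim : Tendsto (fun n : ℕ => (n : ℝ)) atTop atTop := tendsto_natCast_atTop_atTop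
  filter_upwards [eventually_ge_atTop (2 * n₀ + 1), hlim.eventually_ge_atTop (|τ n₀| + 1)]
    with n hn hn2
  have hnn : n₀ ≤ n := by omega
  have h1 := hcs n hnn
  have hn0 : (0 : ℝ) < n := by
    have : 0 < n := by omega
    exact_mod_cast this
  rw [le_div_iff₀ (by positivity)]
  have h2 : (n : ℝ) / 2 ≤ (n : ℝ) - n₀ := by
    have : ((2 * n₀ + 1 : ℕ) : ℝ) ≤ n := by exact_mod_cast hn
    push_cast at this
    linarith
  have h3 : ((n : ℝ) / 2) ^ 2 ≤ ((n : ℝ) - n₀) ^ 2 := pow_le_pow_left₀ (by positivity) h2 2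
  have h4 : M' * ((n : ℝ) / 2) ^ 2 ≤ τ n - τ n₀ := (mul_le_mul_of_nonneg_left h3 hM'pos.le).trans h1
  have h5 : -|τ n₀| ≤ τ n₀ := neg_abs_le _
  have h6 : |τ n₀| ≤ (n : ℝ) ^ 2 := by
    have h7 : (1 : ℝ) ≤ n := by linarith [abs_nonneg (τ n₀)]
    nlinarith [abs_nonneg (τ n₀)]
  have h8 : M ≤ |M| := le_abs_self M
  have h9 : M' * ((n : ℝ) / 2) ^ 2 = 2 * (|M| + 1) * (n : ℝ) ^ 2 := by rw [hM']; ring
  have h10 : M * (n : ℝ) ^ 2 ≤ |M| * (n : ℝ) ^ 2 := mul_le_mul_of_nonneg_right h8 (sq_nonneg _)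
  have h11 : 0 ≤ |M| * (n : ℝ) ^ 2 := by positivity
  nlinarith

namespace Energy

variable {N : ℝ → Measure E} {D : ℝ → ℝ} {τ₀ : ℝ}

/-- **the energy estimate** -/
theorem bound (h : Energy N D τ₀) {φ : E → ℝ} (hφ : ContDiff ℝ 1 φ) (hφs : HasCompactSupport φ) :
    ∃ C : ℝ, 0 ≤ C ∧ ∀ τ τ', τ₀ ≤ τ → τ ≤ τ' →
      (∫ x, φ x ∂(N τ') - ∫ x, φ x ∂(N τ)) ^ 2 ≤ C * ((1 + (τ' - τ)) * (D τ - D τ')) := by
  obtain ⟨A, B, hA, hB, hkey⟩ := h.key φ hφ hφs
  have hD0 : 0 ≤ D τ₀ := h.nonneg _ le_rfl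
  refine ⟨2 * A ^ 2 * D τ₀ + 2 * B ^ 2, by positivity, fun τ τ' h0 h1 => ?_⟩
  have h3 := hkey _ _ h0 h1
  have hg : 0 ≤ τ' - τ := sub_nonneg.2 h1
  have hd : 0 ≤ D τ - D τ' := sub_nonneg.2 (h.anti _ _ h0 h1)
  have hdle : D τ - D τ' ≤ D τ₀ := by
    have h4 := h.anti _ _ le_rfl h0
    have h5 := h.nonneg _ (h0.trans h1)
    linarith
  set g := τ' - τ with hgdef
  set d := D τ - D τ' with hddef
  have hs : √(g * d) ^ 2 = g * d := Real.sq_sqrt (mul_nonneg hg hd)
  have h4 : (∫ x, φ x ∂(N τ') - ∫ x, φ x ∂(N τ)) ^ 2 ≤ (A * d + B * √(g * d)) ^ 2 := by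
    rw [← sq_abs]
    exact pow_le_pow_left₀ (abs_nonneg _) h3 2
  have h5 : (A * d + B * √(g * d)) ^ 2 ≤ 2 * A ^ 2 * (d * d) + 2 * B ^ 2 * (g * d) := by
    have : (A * d + B * √(g * d)) ^ 2 ≤ 2 * (A * d) ^ 2 + 2 * (B * √(g * d)) ^ 2 := by
      nlinarith [sq_nonneg (A * d - B * √(g * d))]
    refine this.trans (le_of_eq ?_)
    rw [mul_pow B, hs]
    ring
  have h6 : d * d ≤ D τ₀ * d := mul_le_mul_of_nonneg_right hdle hd
  have h7 : 0 ≤ D τ₀ * d * g := by positivity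
  have hA2 : 0 ≤ A ^ 2 := sq_nonneg A
  have hB2 : 0 ≤ B ^ 2 := sq_nonneg B
  calc (∫ x, φ x ∂(N τ') - ∫ x, φ x ∂(N τ)) ^ 2
      ≤ 2 * A ^ 2 * (d * d) + 2 * B ^ 2 * (g * d) := h4.trans h5
    _ ≤ 2 * A ^ 2 * (D τ₀ * d) + 2 * B ^ 2 * (g * d) := by gcongr
    _ ≤ (2 * A ^ 2 * D τ₀ + 2 * B ^ 2) * ((1 + g) * d) := by
      nlinarith [mul_nonneg hA2 h7, mul_nonneg hB2 hd]

/-- **moves of size `ε` are sparse** -/
theorem sparse_moves (h : Energy N D τ₀) {τ : ℕ → ℝ} (hτ0 : ∀ k, τ₀ ≤ τ k)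
    (hmono : Monotone τ) {φ : E → ℝ} (hφ : ContDiff ℝ 1 φ) (hφs : HasCompactSupport φ)
    {ε : ℝ} (hε : 0 < ε)
    (hbig : ∀ᶠ k in atTop, ε ≤ |∫ x, φ x ∂(N (τ (k + 1))) - ∫ x, φ x ∂(N (τ k))|) :
    Summable (fun k => 1 / (τ (k + 1) - τ k)) ∧
      Tendsto (fun n : ℕ => τ n / (n : ℝ) ^ 2) atTop atTop := by
  obtain ⟨C, hC, hb⟩ := h.bound hφ hφs
  have hg0 : ∀ k, 0 ≤ τ (k + 1) - τ k := fun k => sub_nonneg.2 (hmono (Nat.le_succ k))
  have hd : ∀ k, 0 ≤ D (τ k) - D (τ (k + 1)) := fun k =>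
    sub_nonneg.2 (h.anti _ _ (hτ0 k) (hmono (Nat.le_succ k)))
  have hDs : Summable fun k => D (τ k) - D (τ (k + 1)) := by
    refine summable_of_sum_range_le (c := D (τ 0)) hd fun n => ?_
    have := Finset.sum_range_sub' (fun k => D (τ k)) n
    rw [this]
    linarith [h.nonneg _ (hτ0 n)]
  -- `∑ 1 / (1 + g_k) < ∞`
  have hsum1 : Summable fun k => 1 / (1 + (τ (k + 1) - τ k)) := by
    refine Summable.of_norm_bounded_eventually_nat (hDs.mul_left (C / ε ^ 2)) ?_
    filter_upwards [hbig] with k hk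
    have hgk := hg0 k
    have hdk := hd k
    rw [Real.norm_eq_abs, abs_of_nonneg (by positivity), div_le_iff₀ (by positivity)]
    have h4 : ε ^ 2 ≤ (∫ x, φ x ∂(N (τ (k + 1))) - ∫ x, φ x ∂(N (τ k))) ^ 2 := by
      rw [← sq_abs (∫ x, φ x ∂(N (τ (k + 1))) - ∫ x, φ x ∂(N (τ k)))]
      exact pow_le_pow_left₀ hε.le hk 2
    have h5 := h4.trans (hb _ _ (hτ0 k) (hmono (Nat.le_succ k)))
    have h6 : C / ε ^ 2 * (D (τ k) - D (τ (k + 1))) * (1 + (τ (k + 1) - τ k)) =
        C * ((1 + (τ (k + 1) - τ k)) * (D (τ k) - D (τ (k + 1)))) / ε ^ 2 := by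
      field_simp
    rw [h6, le_div_iff₀ (by positivity), one_mul]
    exact h5
  -- so `g_k ≥ 1` eventually
  have hlarge : ∀ᶠ k in atTop, 1 ≤ τ (k + 1) - τ k := by
    have h3 := hsum1.tendsto_atTop_zero.eventually_le_const (show (0 : ℝ) < 1 / 2 by norm_num)
    filter_upwards [h3] with k hk
    have hgk := hg0 k
    rw [div_le_div_iff₀ (by positivity) (by norm_num)] at hk
    linarith
  have hsum2 : Summable fun k => 1 / (τ (k + 1) - τ k) := by
    refine Summable.of_norm_bounded_eventually_nat (hsum1.mul_left 2) ?_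
    filter_upwards [hlarge] with k hk
    rw [Real.norm_eq_abs, abs_of_nonneg (by positivity), mul_div_assoc', mul_one,
      div_le_div_iff₀ (by linarith) (by linarith)]
    linarith
  obtain ⟨k₀, hk₀⟩ := eventually_atTop.1 hlarge
  exact ⟨hsum2, tendsto_div_sq hmono hsum2 (k₀ := k₀) fun k hk => by linarith [hk₀ k hk]⟩

/-- **alternating scales are sparse** -/
theorem sparse (h : Energy N D τ₀) {τ : ℕ → ℝ} (hτ0 : ∀ k, τ₀ ≤ τ k)
    (hmono : Monotone τ) {κ κ' : Measure E} (hκ : IsLocallyFiniteMeasure κ)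
    (hκ' : IsLocallyFiniteMeasure κ') (hne : κ ≠ κ')
    (h1 : WeakTendsto (fun i => N (τ (2 * i))) κ)
    (h2 : WeakTendsto (fun i => N (τ (2 * i + 1))) κ') :
    Summable (fun k => 1 / (τ (k + 1) - τ k)) ∧
      Tendsto (fun n : ℕ => τ n / (n : ℝ) ^ 2) atTop atTop := by
  -- a test function separating the two limits
  obtain ⟨φ, hφ, hφs, hφne⟩ : ∃ φ : E → ℝ, ContDiff ℝ 1 φ ∧ HasCompactSupport φ ∧
      ∫ x, φ x ∂κ ≠ ∫ x, φ x ∂κ' := by
    by_contra hcon
    push Not at hcon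
    exact hne (eq_of_contDiff fun g hg hgs => hcon g hg hgs)
  set f : ℕ → ℝ := fun k => ∫ x, φ x ∂(N (τ k)) with hf
  set c : ℝ := |∫ x, φ x ∂κ' - ∫ x, φ x ∂κ| with hc
  have hcpos : 0 < c := abs_pos.2 (sub_ne_zero.2 (Ne.symm hφne))
  have e1 : Tendsto (fun i => f (2 * i)) atTop (𝓝 (∫ x, φ x ∂κ)) := h1 φ hφ.continuous hφs
  have e2 : Tendsto (fun i => f (2 * i + 1)) atTop (𝓝 (∫ x, φ x ∂κ')) := h2 φ hφ.continuous hφs
  -- the displacement is eventually at least `c / 2`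
  have hbig : ∀ᶠ k in atTop, c / 2 ≤ |f (k + 1) - f k| := by
    have d1 := (e2.sub e1).abs
    have d2 := ((e1.comp (tendsto_add_atTop_nat 1)).sub e2).abs
    have d1' := d1.eventually_const_le (show c / 2 < c by linarith)
    have hc' : |∫ x, φ x ∂κ - ∫ x, φ x ∂κ'| = c := by rw [hc, abs_sub_comm]
    have d2' := d2.eventually_const_le (show c / 2 < |∫ x, φ x ∂κ - ∫ x, φ x ∂κ'| by
      rw [hc']; linarith)
    obtain ⟨n₁, hn₁⟩ := eventually_atTop.1 d1'
    obtain ⟨n₂, hn₂⟩ := eventually_atTop.1 d2'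
    refine eventually_atTop.2 ⟨2 * (n₁ + n₂) + 2, fun k hk => ?_⟩
    rcases Nat.even_or_odd' k with ⟨i, hi | hi⟩
    · subst hi
      exact hn₁ i (by omega)
    · subst hi
      have := hn₂ i (by omega)
      simpa [Function.comp, mul_add, add_assoc] using this
  exact h.sparse_moves hτ0 hmono hφ hφs (half_pos hcpos) hbig

/-- from `C¹` test functions to continuous ones -/
theorem diff_tendsto (h : Energy N D τ₀) {ι : Type*} {l : Filter ι} {a b : ι → ℝ}
    (ha : ∀ᶠ i in l, τ₀ ≤ a i) (hb : ∀ᶠ i in l, τ₀ ≤ b i)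
    (H : ∀ g : E → ℝ, ContDiff ℝ 1 g → HasCompactSupport g →
      Tendsto (fun i => ∫ x, g x ∂(N (a i)) - ∫ x, g x ∂(N (b i))) l (𝓝 0))
    {φ : E → ℝ} (hφc : Continuous φ) (hφs : HasCompactSupport φ) :
    Tendsto (fun i => ∫ x, φ x ∂(N (a i)) - ∫ x, φ x ∂(N (b i))) l (𝓝 0) := by
  refine tendsto_of_approx fun ε hε => ?_
  obtain ⟨R, hR⟩ : ∃ R : ℝ, ∀ x, R < ‖x‖ → φ x = 0 := by
    obtain ⟨R, hR⟩ := hφs.isCompact.isBounded.subset_closedBall 0
    refine ⟨R, fun x hx => image_eq_zero_of_notMem_tsupport fun h => ?_⟩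
    have := hR h
    rw [mem_closedBall_zero_iff] at this
    linarith
  obtain ⟨C, hC⟩ := h.bdd _ (isCompact_closedBall (0 : E) R)
  set M : ℝ := ε / (3 * (C + 1)) with hM
  have hMpos : 0 < M := by positivity
  obtain ⟨g, hg1, hg2, hg3⟩ := hφc.exists_contDiff_approx 1 (ε := fun _ => M)
    continuous_const (fun _ => hMpos)
  have hgR : ∀ x, R < ‖x‖ → g x = 0 := by
    intro x hx
    by_contra hne
    exact hg3 (show x ∈ Function.support g from hne) (hR x hx)
  have hgs : HasCompactSupport g :=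
    HasCompactSupport.intro (isCompact_closedBall (0 : E) R) fun x hx => hgR x (by simpa using hx)
  have happ : ∀ τ, τ₀ ≤ τ → |∫ x, φ x ∂(N τ) - ∫ x, g x ∂(N τ)| ≤ ε / 3 := by
    intro τ hτ
    have := h.slow.locFin hτ
    refine (abs_integral_sub_le hφc hg1.continuous hR hgR (fun x _ => ?_) hMpos.le
      (hC τ hτ)).trans ?_
    · rw [abs_sub_comm]
      have := hg2 x
      rw [Real.dist_eq] at this
      exact this.le
    · rw [hM, div_mul_eq_mul_div, div_le_div_iff₀ (by positivity) (by positivity)]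
      nlinarith [C.coe_nonneg]
  refine ⟨fun i => ∫ x, g x ∂(N (a i)) - ∫ x, g x ∂(N (b i)), 0, H g hg1 hgs, ?_,
    by simpa using hε.le⟩
  filter_upwards [ha, hb] with i h1 h2
  have a1 := happ _ h1
  have a2 := happ _ h2
  rw [abs_le] at a1 a2 ⊢
  constructor <;> linarith [a1.1, a1.2, a2.1, a2.2]

/-- **most windows are quiet** -/
theorem quiet (h : Energy N D τ₀) {τ : ℕ → ℝ} (hτ0 : ∀ k, τ₀ ≤ τ k) (hmono : Monotone τ) :
    ∃ Q : Set ℕ, Summable (Qᶜ.indicator fun k => 1 / (1 + (τ (k + 1) - τ k))) ∧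
      ∀ s s' : ℕ → ℝ, (∀ k ∈ Q, s k ∈ Icc (τ k) (τ (k + 1))) →
        (∀ k ∈ Q, s' k ∈ Icc (τ k) (τ (k + 1))) →
        ∀ φ : E → ℝ, Continuous φ → HasCompactSupport φ →
          Tendsto (fun k => ∫ x, φ x ∂(N (s k)) - ∫ x, φ x ∂(N (s' k))) (atTop ⊓ 𝓟 Q) (𝓝 0) := by
  have hanti : Antitone fun k => D (τ k) := fun i j hij => h.anti _ _ (hτ0 i) (hmono hij)
  have hbdd : BddBelow (range fun k => D (τ k)) := ⟨0, by
    rintro _ ⟨k, rfl⟩; exact h.nonneg _ (hτ0 k)⟩
  set L : ℝ := ⨅ k, D (τ k) with hL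
  have hlim : Tendsto (fun k => D (τ k)) atTop (𝓝 L) := tendsto_atTop_ciInf hanti hbdd
  have hle : ∀ k, L ≤ D (τ k) := fun k => ciInf_le hbdd k
  set a : ℕ → ℝ := fun k => √(D (τ k) - L) with ha
  have ha0 : ∀ k, 0 ≤ a k := fun k => Real.sqrt_nonneg _
  have hasq : ∀ k, a k ^ 2 = D (τ k) - L := fun k => Real.sq_sqrt (sub_nonneg.2 (hle k))
  have haanti : ∀ k, a (k + 1) ≤ a k := fun k =>
    Real.sqrt_le_sqrt (sub_le_sub_right (hanti (Nat.le_succ k)) _)
  have halim : Tendsto a atTop (𝓝 0) := by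
    have h1 : Tendsto (fun k => D (τ k) - L) atTop (𝓝 0) := by
      simpa using hlim.sub_const L
    simpa [ha] using h1.sqrt
  have hg0 : ∀ k, 0 ≤ τ (k + 1) - τ k := fun k => sub_nonneg.2 (hmono (Nat.le_succ k))
  set Q : Set ℕ := {k | (1 + (τ (k + 1) - τ k)) * (D (τ k) - D (τ (k + 1))) ≤ a k} with hQ
  refine ⟨Q, ?_, ?_⟩
  · -- the exceptional windows
    have hb : ∀ k, Qᶜ.indicator (fun k => 1 / (1 + (τ (k + 1) - τ k))) k ≤
        2 * (a k - a (k + 1)) := by
      intro k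
      by_cases hk : k ∈ Q
      · rw [indicator_of_notMem (by simpa using hk)]
        have := haanti k
        linarith
      · rw [indicator_of_mem (by simpa using hk)]
        have hk' : a k < (1 + (τ (k + 1) - τ k)) * (D (τ k) - D (τ (k + 1))) := not_le.1 hk
        have hgk := hg0 k
        have h1 : D (τ k) - D (τ (k + 1)) = a k ^ 2 - a (k + 1) ^ 2 := by
          rw [hasq, hasq]; ring
        rw [h1] at hk'
        have h2 := ha0 (k + 1)
        have h3 := haanti k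
        have hapos : 0 < a k := by
          rcases (ha0 k).lt_or_eq with h4 | h4
          · exact h4
          · exfalso
            rw [← h4] at h3 hk'
            have h5 : a (k + 1) = 0 := le_antisymm h3 h2
            rw [h5] at hk'
            simp at hk'
        rw [div_le_iff₀ (by positivity)]
        -- `a < (1 + g) (a² - b²) ≤ (1 + g) 2 a (a - b)`
        have h4 : a k ^ 2 - a (k + 1) ^ 2 ≤ 2 * a k * (a k - a (k + 1)) := by nlinarith
        have h5 : (1 + (τ (k + 1) - τ k)) * (a k ^ 2 - a (k + 1) ^ 2) ≤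
            (1 + (τ (k + 1) - τ k)) * (2 * a k * (a k - a (k + 1))) :=
          mul_le_mul_of_nonneg_left h4 (by positivity)
        have h6 : a k * 1 < a k * (2 * (a k - a (k + 1)) * (1 + (τ (k + 1) - τ k))) := by
          calc a k * 1 = a k := mul_one _
            _ < _ := hk'
            _ ≤ _ := h5
            _ = _ := by ring
        exact (lt_of_mul_lt_mul_left h6 hapos.le).le
    have hn : ∀ k, 0 ≤ Qᶜ.indicator (fun k => 1 / (1 + (τ (k + 1) - τ k))) k := by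
      intro k
      refine indicator_nonneg (fun j _ => ?_) k
      have := hg0 j
      positivity
    refine Summable.of_nonneg_of_le hn hb (Summable.mul_left 2 ?_)
    refine summable_of_sum_range_le (c := a 0) (fun k => sub_nonneg.2 (haanti k)) fun n => ?_
    rw [Finset.sum_range_sub' a n]
    linarith [ha0 n]
  · intro s s' hs hs' φ hφc hφs
    have hmem : ∀ᶠ k in atTop ⊓ 𝓟 Q, k ∈ Q := mem_inf_of_right (mem_principal_self Q)
    refine h.diff_tendsto ?_ ?_ ?_ hφc hφs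
    · filter_upwards [hmem] with k hk
      exact (hτ0 k).trans (hs k hk).1
    · filter_upwards [hmem] with k hk
      exact (hτ0 k).trans (hs' k hk).1
    · intro g hg hgs
      obtain ⟨C, hC, hb⟩ := h.bound hg hgs
      have hkey : ∀ k ∈ Q, ∀ u v, u ∈ Icc (τ k) (τ (k + 1)) → v ∈ Icc (τ k) (τ (k + 1)) →
          u ≤ v → |∫ x, g x ∂(N v) - ∫ x, g x ∂(N u)| ≤ √(C * a k) := by
        intro k hk u v hu hv huv
        refine Real.le_sqrt_of_sq_le ?_
        rw [sq_abs]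
        refine (hb u v ((hτ0 k).trans hu.1) huv).trans (mul_le_mul_of_nonneg_left ?_ hC)
        have h1 : D u - D v ≤ D (τ k) - D (τ (k + 1)) := by
          have e1 := h.anti _ _ (hτ0 k) hu.1
          have e2 := h.anti _ _ ((hτ0 k).trans hv.1) hv.2
          linarith
        have h2 : v - u ≤ τ (k + 1) - τ k := by linarith [hu.1, hv.2]
        have h3 : 0 ≤ D u - D v := sub_nonneg.2 (h.anti _ _ ((hτ0 k).trans hu.1) huv)
        have h4 := hg0 k
        calc (1 + (v - u)) * (D u - D v)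
            ≤ (1 + (τ (k + 1) - τ k)) * (D (τ k) - D (τ (k + 1))) := by
              refine mul_le_mul (by linarith) h1 h3 (by linarith)
          _ ≤ a k := hk
      have hlim0 : Tendsto (fun k => √(C * a k)) (atTop ⊓ 𝓟 Q) (𝓝 0) := by
        have h1 : Tendsto (fun k => √(C * a k)) atTop (𝓝 0) := by
          simpa using (halim.const_mul C).sqrt
        exact h1.mono_left inf_le_left
      refine squeeze_zero_norm' ?_ hlim0
      filter_upwards [hmem] with k hk
      rw [Real.norm_eq_abs]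
      rcases le_total (s' k) (s k) with h1 | h1
      · exact hkey k hk _ _ (hs' k hk) (hs k hk) h1
      · rw [abs_sub_comm]
        exact hkey k hk _ _ (hs k hk) (hs' k hk) h1

end Energy

end Vale.Agent.P218
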